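/-
S0066 (row 47) — package R3 (owner: helper45): the rigidity theorem, core version.

`rigid_core` derives the conclusion of `Spec.rigid` from the conclusions of `rigid_thr`,
`rigid_pay` (package R1c+R2) and from the layout lemma L1 (`between_imp`), all taken as explicit
hypotheses, so this file depends only on `Defs`.

Mathematics (blueprint `notes/s0066_blueprint.md`, R3): case analysis on the group `g` of the
threshold lines of the copy, reading the rank of the three payload roles off their threshold codes.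
-/
import Crest.Agent.Helper5.S0066.Defs

set_option autoImplicit false

namespace Crest.Agent.Helper45.S0066

open Crest.Agent.Helper5.S0066 Line

variable {h : ℕ}

/-! ### The pattern on the cells that matter -/

theorem Hpat_role_thr (k : Fin 66) (hk : k.val < 3) (θ : Fin 4) :
    Hpat k ⟨62 + θ.val, by omega⟩ = code k.val θ.val := by
  have h1 : ¬ (62 + θ.val < 3) := by omega
  have h2 : ¬ (62 + θ.val < 62) := by omega
  simp only [Hpat, hk, if_true, h1, h2, if_false, Nat.add_sub_cancel_left]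

theorem Hpat_thr_role (k : Fin 66) (hk : k.val < 3) (θ : Fin 4) :
    Hpat ⟨62 + θ.val, by omega⟩ k = code k.val θ.val := by
  have h1 : ¬ (62 + θ.val < 3) := by omega
  have h2 : ¬ (62 + θ.val < 62) := by omega
  simp only [Hpat, hk, if_true, h1, h2, if_false, Nat.add_sub_cancel_left]

theorem Hpat_00 : Hpat 0 0 = true := by decide
theorem Hpat_02 : Hpat 0 2 = true := by decide
theorem Hpat_20 : Hpat 2 0 = true := by decide
theorem Hpat_22 : Hpat 2 2 = true := by decide
theorem Hpat_11 : Hpat 1 1 = false := by decide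

/-! ### Reading a rank window off a threshold code -/

theorem prof_zero {f : Fin 4 → ℤ} {ρ : ℤ}
    (hv : ∀ θ : Fin 4, code 0 θ.val = decide (f θ ≤ ρ)) : f 1 ≤ ρ ∧ ρ < f 2 := by
  have h1 := hv 1
  have h2 := hv 2
  simp [code] at h1 h2
  exact ⟨h1, h2⟩

theorem prof_one {f : Fin 4 → ℤ} {ρ : ℤ}
    (hv : ∀ θ : Fin 4, code 1 θ.val = decide (f θ ≤ ρ)) : f 0 ≤ ρ ∧ ρ < f 1 := by
  have h1 := hv 0
  have h2 := hv 1
  simp [code] at h1 h2
  exact ⟨h1, h2⟩

theorem prof_two {f : Fin 4 → ℤ} {ρ : ℤ}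
    (hv : ∀ θ : Fin 4, code 2 θ.val = decide (f θ ≤ ρ)) : f 2 ≤ ρ ∧ ρ < f 3 := by
  have h1 := hv 2
  have h2 := hv 3
  simp [code] at h1 h2
  exact ⟨h1, h2⟩

/-- A role line (payload or `Z`) whose code against the threshold COLUMNS of group `g` is
`code k` is a payload line, and the code is its rank profile. -/
theorem row_prof {l : Line h} (hl : l.isPay = true ∨ ∃ i, l = Z i) {g : Grp h} {k : ℕ}
    (hk : ∀ θ : Fin 4, ∃ i, M l (thr g θ i) = code k θ.val) (hk3 : k < 3)
    (hk1 : g ≠ Grp.bot ∨ k ≠ 1) :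
    l.isPay = true ∧ ∀ θ : Fin 4, code k θ.val = decide (thF g θ ≤ l.rank) := by
  rcases hl with hp | ⟨i, rfl⟩
  · refine ⟨hp, fun θ => ?_⟩
    obtain ⟨i, hi⟩ := hk θ
    rw [← hi, M_pay_thr hp]
  · exfalso
    rcases hk1 with hg | hk1
    · obtain ⟨i', hi'⟩ := hk 0
      have hc : code k (0 : Fin 4).val = true := by
        interval_cases k <;> decide
      rw [hc] at hi'
      simp [M, hg] at hi'
    · obtain ⟨i', hi'⟩ := hk 1
      have hc : code k (1 : Fin 4).val = true := by
        interval_cases k <;> first | decide | exact absurd rfl hk1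
      rw [hc] at hi'
      simp [M] at hi'

/-- Column version of `row_prof`. -/
theorem col_prof {l : Line h} (hl : l.isPay = true ∨ ∃ i, l = Z i) {g : Grp h} {k : ℕ}
    (hk : ∀ θ : Fin 4, ∃ i, M (thr g θ i) l = code k θ.val) (hk3 : k < 3)
    (hk1 : g ≠ Grp.bot ∨ k ≠ 1) :
    l.isPay = true ∧ ∀ θ : Fin 4, code k θ.val = decide (thG g θ ≤ l.rank) := by
  rcases hl with hp | ⟨i, rfl⟩
  · refine ⟨hp, fun θ => ?_⟩
    obtain ⟨i, hi⟩ := hk θ
    rw [← hi, M_thr_pay hp]
  · exfalso
    rcases hk1 with hg | hk1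
    · obtain ⟨i', hi'⟩ := hk 0
      have hc : code k (0 : Fin 4).val = true := by
        interval_cases k <;> decide
      rw [hc] at hi'
      simp [M, hg] at hi'
    · obtain ⟨i', hi'⟩ := hk 1
      have hc : code k (1 : Fin 4).val = true := by
        interval_cases k <;> first | decide | exact absurd rfl hk1
      rw [hc] at hi'
      simp [M] at hi'

/-! ### Thresholds -/

theorem thBot_2 : thBot 2 = 0 := by simp [thBot]
theorem thBot_3 : thBot 3 = 1 := by simp [thBot]

theorem thF_lvl_1 (a : Bool) (j : Fin h) (s : Bool) :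
    thF (Grp.lvl a j s) 1 = 3 * (j.val : ℤ) + 1 + (s.toNat : ℤ) := by
  cases a <;> simp [thF, thT, thA]

theorem thF_lvl_2 (a : Bool) (j : Fin h) (s : Bool) :
    thF (Grp.lvl a j s) 2 = 3 * (j.val : ℤ) + 1 + (s.toNat : ℤ) + 1 := by
  cases a <;> simp [thF, thT, thA]

theorem thF_lvl_3 (a : Bool) (j : Fin h) (s : Bool) :
    thF (Grp.lvl a j s) 3 = 3 * (j.val : ℤ) + 1 + (s.toNat : ℤ) + 2 := by
  cases a <;> simp [thF, thT, thA]

theorem thG_lvl_1 (a : Bool) (j : Fin h) (s : Bool) :
    thG (Grp.lvl a j s) 1 = 3 * (j.val : ℤ) + 1 + (s.toNat : ℤ) := by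
  cases a <;> simp [thG, thT, thA]

theorem thG_lvl_2 (a : Bool) (j : Fin h) (s : Bool) :
    thG (Grp.lvl a j s) 2 = 3 * (j.val : ℤ) + 1 + (s.toNat : ℤ) + 1 := by
  cases a <;> simp [thG, thT, thA]

theorem thG_lvl_3 (a : Bool) (j : Fin h) (s : Bool) :
    thG (Grp.lvl a j s) 3 = 3 * (j.val : ℤ) + 1 + (s.toNat : ℤ) + 2 := by
  cases a <;> simp [thG, thT, thA]

theorem thF_lvl_false_0 (j : Fin h) (s : Bool) :
    thF (Grp.lvl false j s) 0 = if j.val = 0 then 0 else 3 * (j.val : ℤ) - 2 := by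
  simp [thF, thT]

theorem thG_lvl_true_0 (j : Fin h) (s : Bool) :
    thG (Grp.lvl true j s) 0 = if j.val = 0 then 0 else 3 * (j.val : ℤ) - 2 := by
  simp [thG, thT]

/-! ### Inverting the rank of a payload line -/

theorem eq_Y_of_rank {l : Line h} (hl : l.isPay = true) (hr : l.rank < 0) : ∃ u, l = Y u := by
  cases l with
  | Y u => exact ⟨u, rfl⟩
  | Z i => simp [isPay] at hl
  | leaf x => simp [rank] at hr
  | core j k y => simp only [rank] at hr; omega
  | crown a i => simp [isPay] at hl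
  | thr g θ i => simp [isPay] at hl

theorem eq_leaf_of_rank {l : Line h} (hl : l.isPay = true) (h0 : 0 ≤ l.rank) (h1 : l.rank < 1) :
    ∃ x, l = leaf x := by
  cases l with
  | Y u => simp [rank] at h0
  | Z i => simp [isPay] at hl
  | leaf x => exact ⟨x, rfl⟩
  | core j k y => simp only [rank] at h1; omega
  | crown a i => simp [isPay] at hl
  | thr g θ i => simp [isPay] at hl

theorem eq_core_of_rank {l : Line h} (hl : l.isPay = true) (j : Fin h) (k : Fin 3)
    (hr : l.rank = 3 * (j.val : ℤ) + 1 + (k.val : ℤ)) : ∃ y, l = core j k y := by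
  cases l with
  | Y u => simp only [rank] at hr; omega
  | Z i => simp [isPay] at hl
  | leaf x => simp only [rank] at hr; omega
  | core j' k' y =>
    simp only [rank] at hr
    have hj : j' = j := Fin.ext (by omega)
    have hk : k' = k := Fin.ext (by omega)
    subst hj hk
    exact ⟨y, rfl⟩
  | crown a i => simp [isPay] at hl
  | thr g θ i => simp [isPay] at hl

theorem tree_or_Y {l : Line h} (hl : l.isPay = true) : l.isTree = true ∨ ∃ u, l = Y u := by
  cases l with
  | Y u => exact Or.inr ⟨u, rfl⟩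
  | Z i => simp [isPay] at hl
  | leaf x => exact Or.inl rfl
  | core j k y => exact Or.inl rfl
  | crown a i => simp [isPay] at hl
  | thr g θ i => simp [isPay] at hl

/-- A payload line of rank at least `low` (the `θ = 0` threshold of a top-layer side) is a tree
line of level at least `j`. -/
theorem lvl_ge_of_low {l : Line h} (hl : l.isPay = true) {j : ℕ}
    (hlow : (if j = 0 then (0 : ℤ) else 3 * (j : ℤ) - 2) ≤ l.rank) :
    l.isTree = true ∧ j ≤ l.lvl := by
  cases l with
  | Y u => exfalso; simp only [rank] at hlow; split_ifs at hlow <;> omega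
  | Z i => simp [isPay] at hl
  | leaf x =>
    refine ⟨rfl, ?_⟩
    simp only [rank] at hlow
    simp only [lvl]
    split_ifs at hlow <;> omega
  | core j' k' y =>
    refine ⟨rfl, ?_⟩
    simp only [rank] at hlow
    simp only [lvl]
    have := k'.isLt
    split_ifs at hlow <;> omega
  | crown a i => simp [isPay] at hl
  | thr g θ i => simp [isPay] at hl

/-- Two payload lines which, when they are tree lines, lie in the subtree of one class `cc` of
level `j`, one of them being a tree line of level exactly `j`, are adjacent in `M`. -/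
theorem M_true_of_sub {p q : Line h} {j cc : ℕ} (hp : p.isPay = true) (hq : q.isPay = true)
    (hp' : p.isTree = true → p.lvl ≤ j ∧ p.pos / 2 ^ j = cc)
    (hq' : q.isTree = true → q.lvl ≤ j ∧ q.pos / 2 ^ j = cc)
    (htop : (p.isTree = true ∧ j ≤ p.lvl) ∨ (q.isTree = true ∧ j ≤ q.lvl)) : M p q = true := by
  rcases tree_or_Y hp with hpt | ⟨u, rfl⟩
  · rcases tree_or_Y hq with hqt | ⟨u', rfl⟩
    · rw [M_tree_tree hpt hqt]
      obtain ⟨hp1, hp2⟩ := hp' hpt
      obtain ⟨hq1, hq2⟩ := hq' hqt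
      have hmax : max p.lvl q.lvl = j := by
        rcases htop with ⟨_, ht⟩ | ⟨_, ht⟩
        · have : p.lvl = j := le_antisymm hp1 ht
          rw [this]; exact max_eq_left hq1
        · have : q.lvl = j := le_antisymm hq1 ht
          rw [this]; exact max_eq_right hp1
      simp only [nest, hmax, hp2, hq2, decide_true]
    · exact M_pay_Y hp u'
  · exact M_Y_pay hq u

theorem nest_core_core {j : Fin h} {k k' : Fin 3} {y y' : Fin (2 ^ h)}
    (hM : M (core j k y : Line h) (core j k' y') = true) :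
    y.val / 2 ^ (j.val + 1) = y'.val / 2 ^ (j.val + 1) := by
  simpa [M, nest, lvl, pos] using hM

/-! ### The rigidity theorem from its inputs -/

/-- **R3, core form.**  `hthr`, `hpay` are the conclusions of `rigid_thr`, `rigid_pay`;
`hbetween` is the layout lemma L1 (`between_imp`). -/
theorem rigid_core (r c : Fin 66 → Line h) (hr : Monotone r) (hc : Monotone c)
    (hM : ∀ i j, M (r i) (c j) = Hpat i j)
    (hthr : ∃ g : Grp h, (∀ θ : Fin 4, ∃ i, r ⟨62 + θ.val, by omega⟩ = thr g θ i) ∧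
      (∀ θ : Fin 4, ∃ i, c ⟨62 + θ.val, by omega⟩ = thr g θ i))
    (hpay : ∀ k : Fin 3,
      ((r ⟨k.val, by omega⟩).isPay = true ∨ ∃ i, r ⟨k.val, by omega⟩ = Z i) ∧
      ((c ⟨k.val, by omega⟩).isPay = true ∨ ∃ i, c ⟨k.val, by omega⟩ = Z i))
    (hbetween : ∀ {j : Fin h} {s : Bool} {y y' : Fin (2 ^ h)} {l : Line h},
      y.val / 2 ^ (j.val + 1) = y'.val / 2 ^ (j.val + 1) → l.isTree = true →
      l.rank < 3 * (j.val : ℤ) + 1 + (s.toNat : ℤ) →
      core j (kLo s) y ≤ l → l ≤ core j (kHi s) y' →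
      l.lvl ≤ j.val ∧ l.pos / 2 ^ j.val = 2 * (y.val / 2 ^ (j.val + 1)) + s.toNat) :
    ∃ (x : Fin (2 ^ h)) (u : Fin (2 ^ h)), r 2 = leaf x ∧ c 2 = leaf x ∧ r 0 = Y u := by
  obtain ⟨g, hgr, hgc⟩ := hthr
  -- codes of the role lines against the threshold lines
  have hrow : ∀ k : Fin 66, k.val < 3 → ∀ θ : Fin 4,
      ∃ i, M (r k) (thr g θ i) = code k.val θ.val := by
    intro k hk θ
    obtain ⟨i, hi⟩ := hgc θ
    exact ⟨i, by rw [← hi, hM, Hpat_role_thr k hk θ]⟩
  have hcol : ∀ k : Fin 66, k.val < 3 → ∀ θ : Fin 4,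
      ∃ i, M (thr g θ i) (c k) = code k.val θ.val := by
    intro k hk θ
    obtain ⟨i, hi⟩ := hgr θ
    exact ⟨i, by rw [← hi, hM, Hpat_thr_role k hk θ]⟩
  have hrow0 : ∀ θ : Fin 4, ∃ i, M (r 0) (thr g θ i) = code 0 θ.val := hrow 0 (by decide)
  have hrow1 : ∀ θ : Fin 4, ∃ i, M (r 1) (thr g θ i) = code 1 θ.val := hrow 1 (by decide)
  have hrow2 : ∀ θ : Fin 4, ∃ i, M (r 2) (thr g θ i) = code 2 θ.val := hrow 2 (by decide)
  have hcol0 : ∀ θ : Fin 4, ∃ i, M (thr g θ i) (c 0) = code 0 θ.val := hcol 0 (by decide)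
  have hcol1 : ∀ θ : Fin 4, ∃ i, M (thr g θ i) (c 1) = code 1 θ.val := hcol 1 (by decide)
  have hcol2 : ∀ θ : Fin 4, ∃ i, M (thr g θ i) (c 2) = code 2 θ.val := hcol 2 (by decide)
  have hpr0 : (r 0).isPay = true ∨ ∃ i, r 0 = Z i := (hpay 0).1
  have hpr1 : (r 1).isPay = true ∨ ∃ i, r 1 = Z i := (hpay 1).1
  have hpr2 : (r 2).isPay = true ∨ ∃ i, r 2 = Z i := (hpay 2).1
  have hpc0 : (c 0).isPay = true ∨ ∃ i, c 0 = Z i := (hpay 0).2
  have hpc1 : (c 1).isPay = true ∨ ∃ i, c 1 = Z i := (hpay 1).2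
  have hpc2 : (c 2).isPay = true ∨ ∃ i, c 2 = Z i := (hpay 2).2
  cases g with
  | bot =>
    -- the tied copy
    obtain ⟨hr0p, hr0⟩ := row_prof hpr0 hrow0 (by norm_num) (Or.inr (by norm_num))
    obtain ⟨hr2p, hr2⟩ := row_prof hpr2 hrow2 (by norm_num) (Or.inr (by norm_num))
    obtain ⟨hc2p, hc2⟩ := col_prof hpc2 hcol2 (by norm_num) (Or.inr (by norm_num))
    have a0 := (prof_zero hr0).2
    have a2 := prof_two hr2
    have b2 := prof_two hc2
    have e2 : thF (Grp.bot : Grp h) 2 = 0 := thBot_2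
    have e3 : thF (Grp.bot : Grp h) 3 = 1 := thBot_3
    have e2' : thG (Grp.bot : Grp h) 2 = 0 := thBot_2
    have e3' : thG (Grp.bot : Grp h) 3 = 1 := thBot_3
    rw [e2] at a0
    rw [e2, e3] at a2
    rw [e2', e3'] at b2
    obtain ⟨u, hu⟩ := eq_Y_of_rank hr0p a0
    obtain ⟨x, hx⟩ := eq_leaf_of_rank hr2p a2.1 a2.2
    obtain ⟨x', hx'⟩ := eq_leaf_of_rank hc2p b2.1 b2.2
    have h22 := hM 2 2
    rw [hx, hx', Hpat_22] at h22
    have hxx : x = x' := by
      simpa [M, nest, lvl, pos, Fin.val_inj] using h22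
    subst hxx
    exact ⟨x, u, hx, hx', hu⟩
  | lvl a j s =>
    exfalso
    have hg : (Grp.lvl a j s : Grp h) ≠ Grp.bot := by simp
    obtain ⟨hr0p, hr0⟩ := row_prof hpr0 hrow0 (by norm_num) (Or.inl hg)
    obtain ⟨hr1p, hr1⟩ := row_prof hpr1 hrow1 (by norm_num) (Or.inl hg)
    obtain ⟨hr2p, hr2⟩ := row_prof hpr2 hrow2 (by norm_num) (Or.inl hg)
    obtain ⟨hc0p, hc0⟩ := col_prof hpc0 hcol0 (by norm_num) (Or.inl hg)
    obtain ⟨hc1p, hc1⟩ := col_prof hpc1 hcol1 (by norm_num) (Or.inl hg)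
    obtain ⟨hc2p, hc2⟩ := col_prof hpc2 hcol2 (by norm_num) (Or.inl hg)
    have a0 := prof_zero hr0
    have a1 := prof_one hr1
    have a2 := prof_two hr2
    have b0 := prof_zero hc0
    have b1 := prof_one hc1
    have b2 := prof_two hc2
    rw [thF_lvl_1, thF_lvl_2] at a0
    rw [thF_lvl_1] at a1
    rw [thF_lvl_2, thF_lvl_3] at a2
    rw [thG_lvl_1, thG_lvl_2] at b0
    rw [thG_lvl_1] at b1
    rw [thG_lvl_2, thG_lvl_3] at b2
    obtain ⟨y0, hy0⟩ := eq_core_of_rank hr0p j (kLo s) (by rw [kLo_val]; omega)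
    obtain ⟨y2, hy2⟩ := eq_core_of_rank hr2p j (kHi s) (by rw [kHi_val]; push_cast; omega)
    obtain ⟨z0, hz0⟩ := eq_core_of_rank hc0p j (kLo s) (by rw [kLo_val]; omega)
    obtain ⟨z2, hz2⟩ := eq_core_of_rank hc2p j (kHi s) (by rw [kHi_val]; push_cast; omega)
    -- the four corner ones put the four bracket cores in one class
    have e00 : y0.val / 2 ^ (j.val + 1) = z0.val / 2 ^ (j.val + 1) := by
      have := hM 0 0
      rw [hy0, hz0, Hpat_00] at this
      exact nest_core_core this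
    have e02 : y0.val / 2 ^ (j.val + 1) = z2.val / 2 ^ (j.val + 1) := by
      have := hM 0 2
      rw [hy0, hz2, Hpat_02] at this
      exact nest_core_core this
    have e20 : y2.val / 2 ^ (j.val + 1) = z0.val / 2 ^ (j.val + 1) := by
      have := hM 2 0
      rw [hy2, hz0, Hpat_20] at this
      exact nest_core_core this
    -- L1 for the middle row and the middle column
    have hp' : (r 1).isTree = true →
        (r 1).lvl ≤ j.val ∧ (r 1).pos / 2 ^ j.val = 2 * (y0.val / 2 ^ (j.val + 1)) + s.toNat := by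
      intro ht
      have h01 : r 0 ≤ r 1 := hr (by decide)
      have h12 : r 1 ≤ r 2 := hr (by decide)
      rw [hy0] at h01
      rw [hy2] at h12
      exact hbetween (y := y0) (y' := y2) (by omega) ht a1.2 h01 h12
    have hq' : (c 1).isTree = true →
        (c 1).lvl ≤ j.val ∧ (c 1).pos / 2 ^ j.val = 2 * (y0.val / 2 ^ (j.val + 1)) + s.toNat := by
      intro ht
      have h01 : c 0 ≤ c 1 := hc (by decide)
      have h12 : c 1 ≤ c 2 := hc (by decide)
      rw [hz0] at h01
      rw [hz2] at h12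
      have := hbetween (y := z0) (y' := z2) (by omega) ht b1.2 h01 h12
      rw [e00]
      exact this
    have htop : ((r 1).isTree = true ∧ j.val ≤ (r 1).lvl) ∨
        ((c 1).isTree = true ∧ j.val ≤ (c 1).lvl) := by
      cases a with
      | false =>
        left
        have := a1.1
        rw [thF_lvl_false_0] at this
        exact lvl_ge_of_low hr1p this
      | true =>
        right
        have := b1.1
        rw [thG_lvl_true_0] at this
        exact lvl_ge_of_low hc1p this
    have h11 := hM 1 1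
    rw [M_true_of_sub hr1p hc1p hp' hq' htop, Hpat_11] at h11
    exact Bool.noConfusion h11

end Crest.Agent.Helper45.S0066
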