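/-
S0066 (row 47) — package R3 (owner: helper45): the rigidity theorem `rigid`, verbatim as in the
project interface (`Helper5/S0066/Spec.lean`), assembled from

* `rigid_core` (this package, `R3Core.lean`),
* `rigid_crown`, `rigid_thr`, `rigid_pay` (package R1c+R2, helper33),
* `between_imp` (package L1, helper52).
-/
import Crest.Agent.Helper45.S0066.R3Core
import Crest.Agent.Helper33.S0066.R1c
import Crest.Agent.Helper33.S0066.R2
import Crest.Agent.Helper52.S0066.L1

set_option autoImplicit false

namespace Crest.Agent.Helper45.S0066

open Crest.Agent.Helper5.S0066 Line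

variable {h : ℕ}

/-- **R3 = the rigidity theorem.** Every weakly monotone copy of `Hpat` in the base matrix `M`
is tied: its third row and third column sit on one leaf line, its first row on a `Y` line. -/
theorem rigid (r c : Fin 66 → Line h) (hr : Monotone r) (hc : Monotone c)
    (hM : ∀ i j, M (r i) (c j) = Hpat i j) :
    ∃ (x : Fin (2 ^ h)) (u : Fin (2 ^ h)), r 2 = leaf x ∧ c 2 = leaf x ∧ r 0 = Y u :=
  have hcr := Crest.Agent.Helper33.S0066.rigid_crown r c hr hc hM
  rigid_core r c hr hc hM (Crest.Agent.Helper33.S0066.rigid_thr r c hM hcr)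
    (Crest.Agent.Helper33.S0066.rigid_pay r c hM hcr) Crest.Agent.Helper52.S0066.between_imp

end Crest.Agent.Helper45.S0066
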